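import Vale.Agent.P088.R2.H321.W.LemEA
import Mathlib.Analysis.Distribution.FourierMultiplier
import Mathlib.Analysis.Distribution.SchwartzSpace.Deriv
import Mathlib.Analysis.Calculus.FDeriv.Symmetric

/-!
# Lemma E (frozen)

`E` a finite dimensional normed space, `μ` a Haar measure, `a i, b i` vectors, `l i` linear forms
with `l i (a j) = G i j = G j i ≤ lam`, `l i (b j) = 0`, `D_i^* = -∂_{a i} + (l i - s i)`,
`K_i^* = -∂_{b i} + m i`, `m ≠ 0`: for test functions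
`∑ |2 D_i^* f + K_i^* h|² ≥ 8 (tr G - lam) |f|²`.
-/

open MeasureTheory Finset
open scoped SchwartzMap LineDeriv FourierTransform

noncomputable section

namespace Vale.Agent.P088.R2.H321

set_option linter.unusedSectionVars false

section normed

variable {E : Type*} [NormedAddCommGroup E] [NormedSpace ℝ E]

/-- Directional derivative. -/
def dl (v : E) : 𝓢(E, ℝ) →ₗ[ℝ] 𝓢(E, ℝ) where
  toFun f := ∂_{v} f
  map_add' f g := by
    ext x
    simp [SchwartzMap.lineDerivOp_apply_eq_fderiv, fderiv_add f.differentiableAt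
      g.differentiableAt]
  map_smul' c f := by
    ext x
    simp [SchwartzMap.lineDerivOp_apply_eq_fderiv, fderiv_const_smul f.differentiableAt]

theorem dl_apply (v : E) (f : 𝓢(E, ℝ)) (x : E) : dl v f x = fderiv ℝ f x v :=
  SchwartzMap.lineDerivOp_apply_eq_fderiv v f x

theorem dl_comm (v w : E) (f : 𝓢(E, ℝ)) : dl v (dl w f) = dl w (dl v f) := by
  ext x
  have h : ∀ v w : E, dl v (dl w f) x = fderiv ℝ (fderiv ℝ f) x v w := fun v w => by
    rw [dl_apply]
    have e : (dl w f : E → ℝ) = fun y => fderiv ℝ f y w := funext fun y => dl_apply w f y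
    rw [e]
    have hd : DifferentiableAt ℝ (fderiv ℝ f) x :=
      ((f.smooth ⊤).fderiv_right (m := 1) (by norm_cast)).differentiable (by norm_num) x
    rw [fderiv_clm_apply hd (differentiableAt_const w)]
    simp
  rw [h, h]
  exact ((f.smooth 2).contDiffAt.isSymmSndFDerivAt (by simp)).eq v w

/-- The affine function. -/
def af (l : E →L[ℝ] ℝ) (s : ℝ) (z : E) : ℝ := l z - s

theorem tg_af (l : E →L[ℝ] ℝ) (s : ℝ) : (af l s).HasTemperateGrowth := by
  unfold af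
  fun_prop

/-- Multiplication by an affine function. -/
def mu (l : E →L[ℝ] ℝ) (s : ℝ) : 𝓢(E, ℝ) →ₗ[ℝ] 𝓢(E, ℝ) :=
  (SchwartzMap.smulLeftCLM ℝ (af l s)).toLinearMap

theorem mu_apply (l : E →L[ℝ] ℝ) (s : ℝ) (f : 𝓢(E, ℝ)) (x : E) :
    mu l s f x = af l s x * f x := by
  simp [mu, tg_af]

theorem mu_comm (l : E →L[ℝ] ℝ) (s : ℝ) (l' : E →L[ℝ] ℝ) (s' : ℝ) (f : 𝓢(E, ℝ)) :
    mu l s (mu l' s' f) = mu l' s' (mu l s f) := by
  ext x
  simp only [mu_apply]
  ring

theorem dl_mu (v : E) (l : E →L[ℝ] ℝ) (s : ℝ) (f : 𝓢(E, ℝ)) :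
    dl v (mu l s f) = mu l s (dl v f) + (l v) • f := by
  ext x
  have h1 : HasFDerivAt (af l s) l x := by
    unfold af
    exact (l.hasFDerivAt).sub_const s
  have h2 : HasFDerivAt f (fderiv ℝ f x) x := f.differentiableAt.hasFDerivAt
  have h3 := h1.mul h2
  rw [dl_apply]
  have e1 : (mu l s f : E → ℝ) = fun y => af l s y * f y := funext fun y => mu_apply l s f y
  rw [e1]
  have h4 : fderiv ℝ (fun y => af l s y * f y) x = _ := h3.fderiv
  rw [h4]
  simp [mu_apply, dl_apply]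
  ring

variable [FiniteDimensional ℝ E] [MeasurableSpace E] [BorelSpace E] (μ : Measure E)
  [μ.IsAddHaarMeasure]

theorem tprod (f g : 𝓢(E, ℝ)) : Integrable (fun z => f z * g z) μ := by
  have := (SchwartzMap.bilinLeftCLM (ContinuousLinearMap.mul ℝ ℝ) g.hasTemperateGrowth f).integrable
    (μ := μ)
  exact this

/-- The inner product. -/
def ipS : 𝓢(E, ℝ) →ₗ[ℝ] 𝓢(E, ℝ) →ₗ[ℝ] ℝ :=
  LinearMap.mk₂ ℝ (fun f g => ∫ z, f z * g z ∂μ)
    (fun f f' g => by
      rw [← integral_add (tprod μ f g) (tprod μ f' g)]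
      congr 1; funext z; simp; ring)
    (fun c f g => by
      rw [smul_eq_mul, ← integral_const_mul]
      congr 1; funext z; simp; ring)
    (fun f g g' => by
      rw [← integral_add (tprod μ f g) (tprod μ f g')]
      congr 1; funext z; simp; ring)
    (fun c f g => by
      rw [smul_eq_mul, ← integral_const_mul]
      congr 1; funext z; simp; ring)

theorem ipS_apply (f g : 𝓢(E, ℝ)) : ipS μ f g = ∫ z, f z * g z ∂μ := rfl

theorem ip_dl (v : E) (f g : 𝓢(E, ℝ)) : ipS μ (dl v f) g = -ipS μ f (dl v g) := by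
  rw [ipS_apply, ipS_apply]
  have : ∫ z, f z * (dl v g) z ∂μ = -∫ z, (dl v f) z * g z ∂μ :=
    SchwartzMap.integral_mul_lineDerivOp_right_eq_neg_left f g v
  rw [this, neg_neg]

theorem ip_mu (l : E →L[ℝ] ℝ) (s : ℝ) (f g : 𝓢(E, ℝ)) :
    ipS μ (mu l s f) g = ipS μ f (mu l s g) := by
  rw [ipS_apply, ipS_apply]
  congr 1
  funext z
  rw [mu_apply, mu_apply]
  ring

/-- The structure of Lemma E. -/
def leS {ι : Type*} [Fintype ι] (a b : ι → E) (l : ι → E →L[ℝ] ℝ) (s m : ι → ℝ)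
    (G : Matrix ι ι ℝ) (hG : ∀ i j, l i (a j) = G i j) (sG : ∀ i j, G i j = G j i)
    (hb : ∀ i j, l i (b j) = 0) : LE ι 𝓢(E, ℝ) where
  ip := ipS μ
  D i := dl (a i) + mu (l i) (s i)
  Ds i := -dl (a i) + mu (l i) (s i)
  K i := dl (b i) + m i • LinearMap.id
  Ks i := -dl (b i) + m i • LinearMap.id
  G := G
  sG := sG
  sy f g := by rw [ipS_apply, ipS_apply]; congr 1; funext z; ring
  po f := integral_nonneg fun z => mul_self_nonneg _
  aD i f g := by
    simp only [LinearMap.add_apply, LinearMap.neg_apply, map_add, map_neg, ip_dl, ip_mu]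
    ring
  aK i f g := by
    simp only [LinearMap.add_apply, LinearMap.neg_apply, map_add, map_neg, ip_dl,
      LinearMap.smul_apply, map_smul, LinearMap.id_apply]
    ring
  cD i j f := by
    simp only [LinearMap.add_apply, LinearMap.neg_apply, map_add, map_neg, dl_mu, dl_comm (a i),
      mu_comm (l i), hG]
    rw [sG j i]
    module
  cKK i j f := by
    simp only [LinearMap.add_apply, map_add, LinearMap.smul_apply, map_smul, LinearMap.id_apply,
      dl_comm (b i)]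
    module
  cKs i j f := by
    simp only [LinearMap.add_apply, LinearMap.neg_apply, map_add, map_neg, LinearMap.smul_apply,
      map_smul, LinearMap.id_apply, dl_comm (b i)]
    module
  cDK i j f := by
    simp only [LinearMap.add_apply, map_add, LinearMap.smul_apply, map_smul, LinearMap.id_apply,
      dl_comm (a i), dl_mu, hb, zero_smul, add_zero]
    module
  cDs i j f := by
    simp only [LinearMap.add_apply, LinearMap.neg_apply, map_add, map_neg, LinearMap.smul_apply,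
      map_smul, LinearMap.id_apply, dl_comm (a i), dl_mu, hb, zero_smul, add_zero]
    module
  cSK i j f := by
    simp only [LinearMap.add_apply, LinearMap.neg_apply, map_add, map_neg, LinearMap.smul_apply,
      map_smul, LinearMap.id_apply, dl_comm (a i), dl_mu, hb, zero_smul, add_zero]
    module
  cSs i j f := by
    simp only [LinearMap.add_apply, LinearMap.neg_apply, map_add, map_neg, LinearMap.smul_apply,
      map_smul, LinearMap.id_apply, dl_comm (a i), dl_mu, hb, zero_smul, add_zero]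
    module
  css i j f := by
    simp only [LinearMap.add_apply, LinearMap.neg_apply, map_add, map_neg, LinearMap.smul_apply,
      map_smul, LinearMap.id_apply, dl_comm (b i)]
    module

end normed

section resolvent

variable {E : Type*} [NormedAddCommGroup E] [InnerProductSpace ℝ E] [FiniteDimensional ℝ E]
  [MeasurableSpace E] [BorelSpace E] {ι : Type*} [Fintype ι]

/-- The symbol of `∑ K_i K_i^*`. -/
def sbl (u : ι → E) (m : ι → ℝ) (ξ : E) : ℝ :=
  ∑ i, (m i ^ 2 + (2 * Real.pi) ^ 2 * inner ℝ ξ (u i) ^ 2)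

theorem tg_sbl (u : ι → E) (m : ι → ℝ) : (sbl u m).HasTemperateGrowth := by
  unfold sbl
  fun_prop

theorem sbl_pos {u : ι → E} {m : ι → ℝ} (hm : 0 < ∑ i, m i ^ 2) (ξ : E) : 0 < sbl u m ξ := by
  unfold sbl
  rw [sum_add_distrib]
  have : 0 ≤ ∑ i, (2 * Real.pi) ^ 2 * inner ℝ ξ (u i) ^ 2 := sum_nonneg fun i _ => by positivity
  linarith

theorem tg_inv {u : ι → E} {m : ι → ℝ} (hm : 0 < ∑ i, m i ^ 2) :
    (fun ξ => (sbl u m ξ)⁻¹).HasTemperateGrowth := by
  set c := Real.sqrt (∑ i, m i ^ 2) with hc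
  have hc0 : 0 < c := Real.sqrt_pos.2 hm
  have hc2 : c ^ 2 = ∑ i, m i ^ 2 := Real.sq_sqrt hm.le
  -- the linear map
  let Λ : E →L[ℝ] EuclideanSpace ℝ ι :=
    ((EuclideanSpace.equiv ι ℝ).symm : (ι → ℝ) →L[ℝ] EuclideanSpace ℝ ι).comp
      (ContinuousLinearMap.pi fun i => (2 * Real.pi / c) • innerSL ℝ (u i))
  have h1 := (Function.hasTemperateGrowth_one_add_norm_sq_rpow (EuclideanSpace ℝ ι) (-1)).comp
    Λ.hasTemperateGrowth
  have h2 : (fun ξ => (sbl u m ξ)⁻¹) = fun ξ => (c ^ 2)⁻¹ * ((fun x : EuclideanSpace ℝ ι =>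
      (1 + ‖x‖ ^ 2) ^ (-1 : ℝ)) ∘ Λ) ξ := by
    funext ξ
    have e1 : ‖Λ ξ‖ ^ 2 = ∑ i, (2 * Real.pi / c * inner ℝ (u i) ξ) ^ 2 := by
      rw [EuclideanSpace.norm_sq_eq]
      refine sum_congr rfl fun i _ => ?_
      have : (Λ ξ) i = 2 * Real.pi / c * inner ℝ (u i) ξ := by simp [Λ]
      rw [this, Real.norm_eq_abs, sq_abs]
    simp only [Function.comp_apply]
    rw [Real.rpow_neg_one, ← mul_inv, e1]
    congr 1
    unfold sbl
    rw [sum_add_distrib, ← hc2, mul_add, mul_one, mul_sum]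
    congr 1
    refine sum_congr rfl fun i _ => ?_
    rw [real_inner_comm]
    field_simp
  rw [h2]
  fun_prop

/-- Complex valued Schwartz functions: the operator `∑ K_i K_i^*` is a multiplier. -/
theorem mult_eq (u : ι → E) (m : ι → ℝ) (f : 𝓢(E, ℂ)) :
    SchwartzMap.fourierMultiplierCLM ℂ (sbl u m) f =
      ∑ i, ((m i ^ 2 : ℝ) • f - ∂_{u i} (∂_{u i} f)) := by
  have e1 : ∀ v : E, ∀ g : 𝓢(E, ℂ), ∀ ξ : E, (𝓕 (∂_{v} g) : 𝓢(E, ℂ)) ξ =
      (2 * Real.pi * Complex.I) * ((inner ℝ ξ v : ℝ) * (𝓕 g : 𝓢(E, ℂ)) ξ) := fun v g ξ => by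
    have : (fun ξ : E => inner ℝ ξ v).HasTemperateGrowth := by fun_prop
    rw [SchwartzMap.fourier_lineDerivOp_eq g v, smul_apply,
      SchwartzMap.smulLeftCLM_apply_apply this, smul_eq_mul, Complex.real_smul]
  have e3 : ∀ g : 𝓢(E, ℂ), 𝓕⁻ (𝓕 g) = g := fun g => FourierTransform.fourierInv_fourier_eq g
  rw [SchwartzMap.fourierMultiplierCLM_apply, ← e3 (∑ i, ((m i ^ 2 : ℝ) • f -
    ∂_{u i} (∂_{u i} f)))]
  congr 1
  have e2 : 𝓕 (∑ i, ((m i ^ 2 : ℝ) • f - ∂_{u i} (∂_{u i} f))) =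
      ∑ i, ((m i ^ 2 : ℝ) • 𝓕 f - 𝓕 (∂_{u i} (∂_{u i} f))) := by
    have : ∀ g : 𝓢(E, ℂ), 𝓕 g = FourierTransform.fourierCLM ℝ 𝓢(E, ℂ) g := fun g => rfl
    simp only [this, map_sum, map_sub, map_smul]
  rw [e2]
  ext ξ
  rw [SchwartzMap.smulLeftCLM_apply_apply (tg_sbl u m)]
  simp only [_root_.sum_apply, sub_apply, smul_apply, e1,
    Complex.real_smul]
  unfold sbl
  rw [Complex.ofReal_sum, sum_mul]
  refine sum_congr rfl fun i _ => ?_
  push_cast
  linear_combination (((2 * Real.pi) ^ 2 * (inner ℝ ξ (u i) : ℝ) ^ 2) *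
    (𝓕 f : 𝓢(E, ℂ)) ξ : ℂ) * Complex.I_sq

/-- Real part. -/
def reS (g : 𝓢(E, ℂ)) : 𝓢(E, ℝ) := SchwartzMap.postcompCLM Complex.reCLM g

theorem reS_apply (g : 𝓢(E, ℂ)) (x : E) : reS g x = (g x).re := rfl

theorem dl_reS (v : E) (g : 𝓢(E, ℂ)) : dl v (reS g) = reS (∂_{v} g) := by
  ext x
  rw [dl_apply, reS_apply, SchwartzMap.lineDerivOp_apply_eq_fderiv]
  have h : HasFDerivAt g (fderiv ℝ g x) x := g.differentiableAt.hasFDerivAt
  have h2 : HasFDerivAt (fun y => Complex.reCLM (g y)) (Complex.reCLM.comp (fderiv ℝ g x)) x :=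
    Complex.reCLM.hasFDerivAt.comp x h
  have e : (reS g : E → ℝ) = fun y => Complex.reCLM (g y) := rfl
  rw [e, h2.fderiv]
  rfl

theorem exists_res {u : ι → E} {m : ι → ℝ} (hm : 0 < ∑ i, m i ^ 2) (b : 𝓢(E, ℝ)) :
    ∃ β : 𝓢(E, ℝ), ∑ i, ((m i ^ 2) • β - dl (u i) (dl (u i) β)) = b := by
  set bC : 𝓢(E, ℂ) := SchwartzMap.postcompCLM Complex.ofRealCLM b with hb
  set g : 𝓢(E, ℂ) := SchwartzMap.fourierMultiplierCLM ℂ (fun ξ => (sbl u m ξ)⁻¹) bC with hg
  have h1 : SchwartzMap.fourierMultiplierCLM ℂ (sbl u m) g = bC := by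
    rw [hg, SchwartzMap.fourierMultiplierCLM_fourierMultiplierCLM_apply (tg_sbl u m) (tg_inv hm)]
    have : (sbl u m * fun ξ => (sbl u m ξ)⁻¹) = fun _ => (1 : ℝ) := by
      funext ξ
      exact mul_inv_cancel₀ (sbl_pos hm ξ).ne'
    rw [this, SchwartzMap.fourierMultiplierCLM_const]
    simp
  rw [mult_eq] at h1
  refine ⟨reS g, ?_⟩
  have h2 : reS (∑ i, ((m i ^ 2 : ℝ) • g - ∂_{u i} (∂_{u i} g))) = reS bC := by rw [h1]
  have h3 : reS bC = b := by
    ext x
    rfl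
  rw [h3] at h2
  rw [← h2]
  unfold reS
  rw [map_sum]
  refine sum_congr rfl fun i _ => ?_
  rw [map_sub, map_smul]
  congr 1
  have e1 := dl_reS (u i) g
  have e2 := dl_reS (u i) (∂_{u i} g)
  unfold reS at e1 e2
  rw [e1, e2]

end resolvent

section final

variable {E : Type*} [NormedAddCommGroup E] [NormedSpace ℝ E] [FiniteDimensional ℝ E]
  {ι : Type*} [Fintype ι]

/-- The resolvent on a normed space. -/
theorem exists_res' {u : ι → E} {m : ι → ℝ} (hm : 0 < ∑ i, m i ^ 2) (b : 𝓢(E, ℝ)) :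
    ∃ β : 𝓢(E, ℝ), ∑ i, ((m i ^ 2) • β - dl (u i) (dl (u i) β)) = b := by
  let Φ : E ≃L[ℝ] EuclideanSpace ℝ (Fin (Module.finrank ℝ E)) := toEuclidean
  obtain ⟨β, hβ⟩ := exists_res (u := fun i => Φ (u i)) hm
    (SchwartzMap.compCLMOfContinuousLinearEquiv ℝ Φ.symm b)
  refine ⟨SchwartzMap.compCLMOfContinuousLinearEquiv ℝ Φ β, ?_⟩
  have h := congrArg (SchwartzMap.compCLMOfContinuousLinearEquiv ℝ Φ) hβ
  have e0 : SchwartzMap.compCLMOfContinuousLinearEquiv ℝ Φ
      (SchwartzMap.compCLMOfContinuousLinearEquiv ℝ Φ.symm b) = b := by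
    ext x
    simp
  rw [e0, map_sum] at h
  rw [← h]
  refine sum_congr rfl fun i _ => ?_
  rw [map_sub, map_smul]
  congr 1
  have e1 : ∀ g : 𝓢(EuclideanSpace ℝ (Fin (Module.finrank ℝ E)), ℝ),
      dl (u i) (SchwartzMap.compCLMOfContinuousLinearEquiv ℝ Φ g) =
        SchwartzMap.compCLMOfContinuousLinearEquiv ℝ Φ (dl (Φ (u i)) g) := fun g =>
    SchwartzMap.lineDerivOp_compCLMOfContinuousLinearEquiv ℝ (u i) Φ g
  rw [e1, e1]

variable [MeasurableSpace E] [BorelSpace E] (μ : Measure E) [μ.IsAddHaarMeasure]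

/-- **Lemma E** (frozen) for Schwartz functions. -/
theorem lemE_schwartz {a b : ι → E} {l : ι → E →L[ℝ] ℝ} (s : ι → ℝ) {m : ι → ℝ}
    {G : Matrix ι ι ℝ} (hG : ∀ i j, l i (a j) = G i j) (sG : ∀ i j, G i j = G j i)
    (hb : ∀ i j, l i (b j) = 0) {lam : ℝ}
    (hl : ∀ x : ι → ℝ, ∑ i, ∑ j, G i j * x i * x j ≤ lam * ∑ i, x i ^ 2)
    (hm : 0 < ∑ i, m i ^ 2) (f h : 𝓢(E, ℝ)) :
    8 * (G.trace - lam) * ∫ z, f z * f z ∂μ ≤
      ∑ i, ∫ z, (2 * (-fderiv ℝ f z (a i) + (l i z - s i) * f z) +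
        (-fderiv ℝ h z (b i) + m i * h z)) * (2 * (-fderiv ℝ f z (a i) + (l i z - s i) * f z) +
        (-fderiv ℝ h z (b i) + m i * h z)) ∂μ := by
  obtain ⟨β, hβ⟩ := exists_res' (u := b) hm f
  set L := leS μ a b l s m G hG sG hb with hL
  have hQ : L.Q β = f := by
    rw [← hβ]
    refine sum_congr rfl fun i _ => ?_
    change (dl (b i) + m i • LinearMap.id : 𝓢(E, ℝ) →ₗ[ℝ] 𝓢(E, ℝ))
      ((-dl (b i) + m i • LinearMap.id : 𝓢(E, ℝ) →ₗ[ℝ] 𝓢(E, ℝ)) β) = _
    simp only [LinearMap.add_apply, LinearMap.neg_apply, map_add, map_neg, LinearMap.smul_apply,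
      map_smul, LinearMap.id_apply]
    module
  have h0 := L.main hl β h
  rw [hQ] at h0
  have e1 : L.ip f f = ∫ z, f z * f z ∂μ := rfl
  have e2 : ∀ i, L.ip ((2 : ℝ) • L.Ds i f + L.Ks i h) ((2 : ℝ) • L.Ds i f + L.Ks i h) =
      ∫ z, (2 * (-fderiv ℝ f z (a i) + (l i z - s i) * f z) +
        (-fderiv ℝ h z (b i) + m i * h z)) * (2 * (-fderiv ℝ f z (a i) + (l i z - s i) * f z) +
        (-fderiv ℝ h z (b i) + m i * h z)) ∂μ := fun i => by
    set G : 𝓢(E, ℝ) := (2 : ℝ) • L.Ds i f + L.Ks i h with hG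
    have hG2 : G = (2 : ℝ) • (-dl (a i) + mu (l i) (s i) : 𝓢(E, ℝ) →ₗ[ℝ] 𝓢(E, ℝ)) f +
      (-dl (b i) + m i • LinearMap.id : 𝓢(E, ℝ) →ₗ[ℝ] 𝓢(E, ℝ)) h := rfl
    change ipS μ G G = _
    rw [ipS_apply]
    congr 1
    funext z
    have : G z =
        2 * (-fderiv ℝ f z (a i) + (l i z - s i) * f z) +
        (-fderiv ℝ h z (b i) + m i * h z) := by
      rw [hG2]
      simp only [LinearMap.add_apply, LinearMap.neg_apply, LinearMap.smul_apply,
        LinearMap.id_apply, add_apply, smul_apply, neg_apply, smul_eq_mul, dl_apply, mu_apply, af]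
    rw [this]
  rw [e1] at h0
  simp only [e2] at h0
  exact h0

end final

end Vale.Agent.P088.R2.H321
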