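import Mathlib.Algebra.Module.BigOperators
import Mathlib.LinearAlgebra.BilinearMap
import Mathlib.Analysis.Matrix.Order
import Mathlib.Tactic

/-!
# Lemma E: the algebra

`F` a real vector space with a symmetric nonnegative form, `D i, Ds i` with
`[D i, Ds j] = 2 G i j`, `K i, Ks i` commuting with everything. If `b = (∑ K_i Ks_i) β` then
`∑ |2 Ds_i b + Ks_i c|² ≥ 8 (tr G - lam) |b|²`.
-/

namespace Vale.Agent.P088.R2.H321

open Finset

/-- `∑ M_ij B(v_i, v_j) ≥ 0` for `M ≥ 0`, `B ≥ 0`. -/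
theorem psd_form {ι F : Type*} [Fintype ι] [AddCommGroup F] [Module ℝ F] (M : Matrix ι ι ℝ)
    (hs : ∀ i j, M i j = M j i) (hM : ∀ x : ι → ℝ, 0 ≤ ∑ i, ∑ j, M i j * x i * x j)
    (B : F →ₗ[ℝ] F →ₗ[ℝ] ℝ) (hB : ∀ f, 0 ≤ B f f) (v : ι → F) :
    0 ≤ ∑ i, ∑ j, M i j * B (v i) (v j) := by
  classical
  have h1 : M.PosSemidef := by
    refine Matrix.PosSemidef.of_dotProduct_mulVec_nonneg (Matrix.IsHermitian.ext fun i j => ?_)
      fun x => ?_
    · simpa using hs j i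
    · have := hM x
      simp only [star_trivial, dotProduct, Matrix.mulVec, mul_sum]
      refine this.trans_eq (sum_congr rfl fun i _ => sum_congr rfl fun j _ => by ring)
  open scoped MatrixOrder in
  obtain ⟨a, ha⟩ := CStarAlgebra.nonneg_iff_eq_star_mul_self.mp h1.nonneg
  have h2 : ∀ i j, M i j = ∑ k, a k i * a k j := fun i j => by
    rw [ha]
    simp [Matrix.mul_apply, Matrix.star_apply]
  have h3 : ∑ i, ∑ j, M i j * B (v i) (v j) =
      ∑ k, B (∑ i, a k i • v i) (∑ j, a k j • v j) := by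
    simp only [h2, map_sum, LinearMap.sum_apply, map_smul, LinearMap.smul_apply, smul_eq_mul,
      sum_mul]
    rw [sum_comm' (s := univ) (t := fun _ => univ) (t' := univ) (s' := fun _ => univ)
      (by simp)]
    rw [show (∑ y, ∑ x, ∑ i, a i x * a i y * B (v x) (v y)) =
      ∑ k, ∑ y, ∑ x, a k x * a k y * B (v x) (v y) from by
        rw [show (∑ y, ∑ x, ∑ i, a i x * a i y * B (v x) (v y)) =
          ∑ y, ∑ i, ∑ x, a i x * a i y * B (v x) (v y) from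
            sum_congr rfl fun y _ => sum_comm]
        exact sum_comm]
    refine sum_congr rfl fun k _ => sum_congr rfl fun y _ => ?_
    rw [mul_sum]
    exact sum_congr rfl fun x _ => by ring
  rw [h3]
  exact sum_nonneg fun k _ => hB _

/-- Creation and annihilation operators and a commuting family. -/
structure LE (ι F : Type*) [Fintype ι] [AddCommGroup F] [Module ℝ F] where
  ip : F →ₗ[ℝ] F →ₗ[ℝ] ℝ
  D : ι → F →ₗ[ℝ] F
  Ds : ι → F →ₗ[ℝ] F
  K : ι → F →ₗ[ℝ] F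
  Ks : ι → F →ₗ[ℝ] F
  G : Matrix ι ι ℝ
  sG : ∀ i j, G i j = G j i
  sy : ∀ f g, ip f g = ip g f
  po : ∀ f, 0 ≤ ip f f
  aD : ∀ i f g, ip (Ds i f) g = ip f (D i g)
  aK : ∀ i f g, ip (Ks i f) g = ip f (K i g)
  cD : ∀ i j f, D i (Ds j f) = Ds j (D i f) + (2 * G i j) • f
  cKK : ∀ i j f, K i (K j f) = K j (K i f)
  cKs : ∀ i j f, K i (Ks j f) = Ks j (K i f)
  cDK : ∀ i j f, D i (K j f) = K j (D i f)
  cDs : ∀ i j f, D i (Ks j f) = Ks j (D i f)
  cSK : ∀ i j f, Ds i (K j f) = K j (Ds i f)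
  cSs : ∀ i j f, Ds i (Ks j f) = Ks j (Ds i f)
  css : ∀ i j f, Ks i (Ks j f) = Ks j (Ks i f)

namespace LE

variable {ι F : Type*} [Fintype ι] [AddCommGroup F] [Module ℝ F] (L : LE ι F)

/-- `∑ K_i K_i^*`. -/
def Q (f : F) : F := ∑ i, L.K i (L.Ks i f)

theorem Q_sub (f g : F) : L.Q (f - g) = L.Q f - L.Q g := by
  simp [Q, Finset.sum_sub_distrib]

theorem KQ (i : ι) (f : F) : L.K i (L.Q f) = L.Q (L.K i f) := by
  unfold Q
  rw [map_sum]
  exact sum_congr rfl fun j _ => by rw [L.cKK i j, L.cKs i j]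

theorem KsQ (i : ι) (f : F) : L.Ks i (L.Q f) = L.Q (L.Ks i f) := by
  unfold Q
  rw [map_sum]
  exact sum_congr rfl fun j _ => by rw [← L.cKs j i, L.css i j]

theorem DQ (i : ι) (f : F) : L.D i (L.Q f) = L.Q (L.D i f) := by
  unfold Q
  rw [map_sum]
  exact sum_congr rfl fun j _ => by rw [L.cDK i j, L.cDs i j]

theorem SQ (i : ι) (f : F) : L.Ds i (L.Q f) = L.Q (L.Ds i f) := by
  unfold Q
  rw [map_sum]
  exact sum_congr rfl fun j _ => by rw [L.cSK i j, L.cSs i j]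

theorem Q_sum (g : ι → F) : L.Q (∑ i, g i) = ∑ i, L.Q (g i) := by
  unfold Q
  rw [sum_comm]
  exact sum_congr rfl fun j _ => by rw [map_sum, map_sum]

theorem aD' (i : ι) (f g : F) : L.ip f (L.Ds i g) = L.ip (L.D i f) g := by
  rw [L.sy f, L.aD, L.sy]

theorem aK' (i : ι) (f g : F) : L.ip f (L.Ks i g) = L.ip (L.K i f) g := by
  rw [L.sy f, L.aK, L.sy]

theorem Q_sy (f g : F) : L.ip (L.Q f) g = L.ip f (L.Q g) := by
  unfold Q
  rw [map_sum, map_sum, LinearMap.sum_apply]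
  refine sum_congr rfl fun i _ => ?_
  rw [L.cKs i i f, L.aK, L.cKs i i g, L.aK']

theorem Q_po (f : F) : 0 ≤ L.ip (L.Q f) f := by
  have : L.ip (L.Q f) f = ∑ i, L.ip (L.K i f) (L.K i f) := by
    unfold Q
    rw [map_sum, LinearMap.sum_apply]
    exact sum_congr rfl fun i _ => by rw [L.cKs i i f, L.aK]
  rw [this]
  exact sum_nonneg fun i _ => L.po _

/-- The component of `2 D^* b` orthogonal to the range of `K^*`. -/
def u (β : F) : F := ∑ j, L.K j (L.Ds j β)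

theorem Qu (β : F) : L.Q (L.u β) = ∑ j, L.K j (L.Ds j (L.Q β)) := by
  unfold u
  rw [L.Q_sum]
  exact sum_congr rfl fun j _ => by rw [L.SQ, L.KQ]

theorem Z_ort (β c : F) :
    ∑ i, L.ip (L.Ks i c) ((2 : ℝ) • (L.Ds i (L.Q β) - L.Ks i (L.u β))) = 0 := by
  have : ∀ i, L.ip (L.Ks i c) ((2 : ℝ) • (L.Ds i (L.Q β) - L.Ks i (L.u β))) =
      2 * (L.ip c (L.K i (L.Ds i (L.Q β))) - L.ip c (L.K i (L.Ks i (L.u β)))) := fun i => by
    rw [L.aK, map_smul, map_smul, map_sub, map_sub, smul_eq_mul]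
  simp only [this, ← mul_sum, sum_sub_distrib, ← map_sum]
  have e : ∑ i, L.K i (L.Ks i (L.u β)) = L.Q (L.u β) := rfl
  rw [e, L.Qu, sub_self, mul_zero]

theorem ip_Q_Q (g : F) : L.ip (L.Q g) (L.Q g) = ∑ j, L.ip (L.Q (L.K j g)) (L.K j g) := by
  have : L.Q g = ∑ j, L.Ks j (L.K j g) := sum_congr rfl fun j _ => L.cKs j j _
  calc L.ip (L.Q g) (L.Q g) = L.ip (L.Q g) (∑ j, L.Ks j (L.K j g)) := by rw [← this]
    _ = _ := by
      rw [map_sum]
      exact sum_congr rfl fun j _ => by rw [L.aK', L.KQ]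

theorem ip_K_K (f g : F) : ∑ i, L.ip (L.K i f) (L.K i g) = L.ip f (L.Q g) := by
  unfold Q
  rw [map_sum]
  exact sum_congr rfl fun j _ => by rw [L.cKs, L.aK']

/-- `Q` as a linear map. -/
def Ql : F →ₗ[ℝ] F := ∑ i, (L.K i).comp (L.Ks i)

theorem Ql_apply (f : F) : L.Ql f = L.Q f := by
  simp [Ql, Q, LinearMap.sum_apply]

/-- The key identity. -/
theorem key (β : F) :
    ∑ i, L.ip (L.Ds i (L.Q β)) (L.Ds i (L.Q β)) -
      ∑ i, L.ip (L.K i (L.Ds i (L.Q β))) (L.u β) =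
    2 * L.G.trace * L.ip (L.Q β) (L.Q β) -
      2 * ∑ i, ∑ j, L.G i j * L.ip (L.Q (L.K i β)) (L.K j β) +
      (1 / 2) * ∑ i, ∑ j, L.ip (L.Q (L.K j (L.D i β) - L.K i (L.D j β)))
        (L.K j (L.D i β) - L.K i (L.D j β)) := by
  -- first sum
  have e1 : ∀ i, L.ip (L.Ds i (L.Q β)) (L.Ds i (L.Q β)) =
      ∑ j, L.ip (L.Q (L.K j (L.D i β))) (L.K j (L.D i β)) +
        2 * L.G i i * L.ip (L.Q β) (L.Q β) := fun i => by
    rw [L.aD, L.cD, map_add, map_smul, smul_eq_mul, L.aD', L.DQ, L.ip_Q_Q]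
  -- second sum
  have e2 : ∀ i, L.ip (L.K i (L.Ds i (L.Q β))) (L.u β) =
      ∑ j, L.ip (L.Q (L.K i (L.D j β))) (L.K j (L.D i β)) +
        2 * ∑ j, L.G i j * L.ip (L.Q (L.K i β)) (L.K j β) := fun i => by
    unfold u
    rw [map_sum]
    have : ∀ j, L.ip (L.K i (L.Ds i (L.Q β))) (L.K j (L.Ds j β)) =
        L.ip (L.Q (L.K i (L.D j β))) (L.K j (L.D i β)) +
          2 * (L.G i j * L.ip (L.Q (L.K i β)) (L.K j β)) := fun j => by
      rw [← L.cSK j j β, L.aD', L.cDK j i, L.cD j i, map_add, map_smul, ← L.cSK i i,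
        map_add, LinearMap.add_apply, L.aD i, L.cDK i j, L.DQ, L.KQ, map_smul,
        LinearMap.smul_apply, smul_eq_mul, L.KQ, L.sG j i]
      ring
    simp only [this, sum_add_distrib, ← mul_sum]
  have e4 : ∀ i j, L.ip (L.Q (L.K j (L.D i β) - L.K i (L.D j β)))
        (L.K j (L.D i β) - L.K i (L.D j β)) =
      L.ip (L.Q (L.K j (L.D i β))) (L.K j (L.D i β)) +
        L.ip (L.Q (L.K i (L.D j β))) (L.K i (L.D j β)) -
        2 * L.ip (L.Q (L.K i (L.D j β))) (L.K j (L.D i β)) := fun i j => by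
    have h : L.ip (L.Q (L.K j (L.D i β))) (L.K i (L.D j β)) =
        L.ip (L.Q (L.K i (L.D j β))) (L.K j (L.D i β)) := by
      rw [L.Q_sy, L.sy]
    rw [L.Q_sub]
    simp only [map_sub, LinearMap.sub_apply]
    rw [h]
    ring
  have e5 : ∑ i, ∑ j, L.ip (L.Q (L.K i (L.D j β))) (L.K i (L.D j β)) =
      ∑ i, ∑ j, L.ip (L.Q (L.K j (L.D i β))) (L.K j (L.D i β)) := sum_comm
  have e6 : ∑ i, 2 * L.G i i * L.ip (L.Q β) (L.Q β) =
      2 * L.G.trace * L.ip (L.Q β) (L.Q β) := by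
    rw [← sum_mul, ← mul_sum]
    rfl
  simp only [e1, e2, e4, sum_add_distrib, sum_sub_distrib, e6, e5, ← mul_sum]
  ring

/-- The bound of the `G` term. -/
theorem G_le {lam : ℝ} (hG : ∀ x : ι → ℝ, ∑ i, ∑ j, L.G i j * x i * x j ≤ lam * ∑ i, x i ^ 2)
    (β : F) : ∑ i, ∑ j, L.G i j * L.ip (L.Q (L.K i β)) (L.K j β) ≤
      lam * L.ip (L.Q β) (L.Q β) := by
  classical
  have h := psd_form (fun i j => (if i = j then lam else 0) - L.G i j)
    (fun i j => by rw [L.sG i j]; by_cases h : i = j <;> simp [h, eq_comm])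
    (fun x => by
      have e : ∑ i, ∑ j, ((if i = j then lam else 0) - L.G i j) * x i * x j =
          lam * ∑ i, x i ^ 2 - ∑ i, ∑ j, L.G i j * x i * x j := by
        simp only [sub_mul, sum_sub_distrib, ite_mul, zero_mul, sum_ite_eq, mem_univ, if_true,
          mul_sum]
        congr 1
        exact sum_congr rfl fun i _ => by ring
      rw [e]
      linarith [hG x])
    (L.ip.comp L.Ql) (fun f => by
      rw [LinearMap.comp_apply, L.Ql_apply]; exact L.Q_po f) (fun i => L.K i β)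
  simp only [LinearMap.comp_apply, L.Ql_apply] at h
  have e : ∑ i, ∑ j, ((if i = j then lam else 0) - L.G i j) *
      L.ip (L.Q (L.K i β)) (L.K j β) = lam * ∑ i, L.ip (L.Q (L.K i β)) (L.K i β) -
        ∑ i, ∑ j, L.G i j * L.ip (L.Q (L.K i β)) (L.K j β) := by
    simp only [sub_mul, sum_sub_distrib, ite_mul, zero_mul, sum_ite_eq, mem_univ, if_true,
      mul_sum]
  rw [e] at h
  have e2 : ∑ i, L.ip (L.Q (L.K i β)) (L.K i β) = L.ip (L.Q β) (L.Q β) := by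
    rw [L.ip_Q_Q]
  rw [e2] at h
  linarith

/-- **Lemma E**, abstract form. -/
theorem main {lam : ℝ}
    (hG : ∀ x : ι → ℝ, ∑ i, ∑ j, L.G i j * x i * x j ≤ lam * ∑ i, x i ^ 2) (β c : F) :
    8 * (L.G.trace - lam) * L.ip (L.Q β) (L.Q β) ≤
      ∑ i, L.ip ((2 : ℝ) • L.Ds i (L.Q β) + L.Ks i c) ((2 : ℝ) • L.Ds i (L.Q β) + L.Ks i c) := by
  set b := L.Q β with hb
  set Z : ι → F := fun i => (2 : ℝ) • (L.Ds i b - L.Ks i (L.u β)) with hZ
  set Y : ι → F := fun i => (2 : ℝ) • L.Ds i b + L.Ks i c with hY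
  have h1 : ∀ i, 2 * L.ip (Y i) (Z i) - L.ip (Z i) (Z i) ≤ L.ip (Y i) (Y i) := fun i => by
    have := L.po (Y i - Z i)
    simp only [map_sub, LinearMap.sub_apply] at this
    rw [L.sy (Z i) (Y i)] at this
    linarith
  have h2 := L.Z_ort β c
  have h3 := L.Z_ort β ((2 : ℝ) • L.u β)
  have h4 : ∀ i, 2 * L.ip (Y i) (Z i) - L.ip (Z i) (Z i) =
      2 * L.ip (L.Ks i c) (Z i) + L.ip (L.Ks i ((2 : ℝ) • L.u β)) (Z i) +
        4 * (L.ip (L.Ds i b) (L.Ds i b) - L.ip (L.K i (L.Ds i b)) (L.u β)) := fun i => by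
    have h5 : L.ip (L.Ds i b) (L.Ks i (L.u β)) = L.ip (L.K i (L.Ds i b)) (L.u β) := L.aK' _ _ _
    simp only [hY, hZ, map_smul, map_add, map_sub, LinearMap.add_apply, LinearMap.sub_apply,
      LinearMap.smul_apply, smul_eq_mul]
    rw [← h5, L.sy (L.Ks i (L.u β)) (L.Ds i b)]
    ring
  have h6 := L.key β
  have h7 := L.G_le hG β
  calc 8 * (L.G.trace - lam) * L.ip b b ≤
      4 * (∑ i, L.ip (L.Ds i b) (L.Ds i b) - ∑ i, L.ip (L.K i (L.Ds i b)) (L.u β)) := by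
        rw [h6]
        have : 0 ≤ ∑ i, ∑ j, L.ip (L.Q (L.K j (L.D i β) - L.K i (L.D j β)))
          (L.K j (L.D i β) - L.K i (L.D j β)) :=
          sum_nonneg fun i _ => sum_nonneg fun j _ => L.Q_po _
        linarith
    _ = ∑ i, (2 * L.ip (Y i) (Z i) - L.ip (Z i) (Z i)) := by
        simp only [h4, sum_add_distrib, ← mul_sum, sum_sub_distrib]
        rw [h2, h3]
        ring
    _ ≤ _ := sum_le_sum fun i _ => h1 i

end LE

end Vale.Agent.P088.R2.H321
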