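import Vale.Agent.P088.R2.H321.W.LemE
import Vale.Agent.P088.R2.H464.EP.Ops

/-!
# Lemma E (frozen) on test functions

`D_i^* = -∂_{a i} + (l i - s i)`, `K_i^* = -∂_{b i} + m i`, `[D_i, D_j^*] = 2 G i j`, `G ≤ lam`:
`∑ |2 D_i^* f + K_i^* h|² ≥ 8 (tr G - lam) |f|²`.
-/

open MeasureTheory Finset
open scoped ContDiff

noncomputable section

namespace Vale.Agent.P088.R2.H321

open Vale.Agent.P088.R2.H464.EP

variable {E : Type} [NormedAddCommGroup E] [NormedSpace ℝ E]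

/-- The affine function `l - s`. -/
def aff (l : E →L[ℝ] ℝ) (s : ℝ) : Sm E :=
  ⟨fun z => l z - s, (l.contDiff.sub contDiff_const : ContDiff ℝ ∞ fun z => l z - s)⟩

@[simp] theorem aff_apply (l : E →L[ℝ] ℝ) (s : ℝ) (z : E) : (aff l s : E → ℝ) z = l z - s := rfl

theorem ds_aff (v : E) (l : E →L[ℝ] ℝ) (s : ℝ) : ds v (aff l s) = algebraMap ℝ (Sm E) (l v) := by
  ext z
  have h : HasFDerivAt (fun y => l y - s) l z := l.hasFDerivAt.sub_const s
  change fderiv ℝ (fun y => l y - s) z v = l v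
  rw [h.fderiv]

variable [FiniteDimensional ℝ E] [MeasurableSpace E] [BorelSpace E] (μ : Measure E)
  [μ.IsAddHaarMeasure] {ι : Type*} [Fintype ι]

/-- **Lemma E** (frozen), helper205's (E1). -/
theorem lemE {a b : ι → E} {l : ι → E →L[ℝ] ℝ} (s : ι → ℝ) {m : ι → ℝ}
    {G : Matrix ι ι ℝ} (hG : ∀ i j, l i (a j) = G i j) (sG : ∀ i j, G i j = G j i)
    (hb : ∀ i j, l i (b j) = 0) {lam : ℝ}
    (hl : ∀ x : ι → ℝ, ∑ i, ∑ j, G i j * x i * x j ≤ lam * ∑ i, x i ^ 2)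
    (hm : m ≠ 0) {Ds Ks : ι → Op E} (hD : ∀ i, Ds i = -dv (a i) + ml (aff (l i) (s i)))
    (hK : ∀ i, Ks i = -dv (b i) + m i • 1) (f h : TE E) :
    8 * (G.trace - lam) * ip μ f f ≤
      ∑ i, ip μ ((2 : ℝ) • Ds i f + Ks i h) ((2 : ℝ) • Ds i f + Ks i h) := by
  have hm' : 0 < ∑ i, m i ^ 2 := by
    obtain ⟨i, hi⟩ := Function.ne_iff.1 hm
    have : 0 < m i ^ 2 := by
      have : m i ≠ 0 := hi
      positivity
    exact this.trans_le (single_le_sum (f := fun i => m i ^ 2) (fun _ _ => sq_nonneg _)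
      (mem_univ i))
  have h1 := lemE_schwartz μ (a := a) (b := b) s hG sG hb hl hm' (f.cs.toSchwartzMap f.cd)
    (h.cs.toSchwartzMap h.cd)
  have e1 : ip μ f f = ∫ z, f.fn z * f.fn z ∂μ := rfl
  have e2 : ∀ i, ip μ ((2 : ℝ) • Ds i f + Ks i h) ((2 : ℝ) • Ds i f + Ks i h) =
      ∫ z, (2 * (-fderiv ℝ f.fn z (a i) + (l i z - s i) * f.fn z) +
        (-fderiv ℝ h.fn z (b i) + m i * h.fn z)) *
        (2 * (-fderiv ℝ f.fn z (a i) + (l i z - s i) * f.fn z) +
        (-fderiv ℝ h.fn z (b i) + m i * h.fn z)) ∂μ := fun i => by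
    rw [ip_apply]
    congr 1
    funext z
    have : ((2 : ℝ) • Ds i f + Ks i h).fn z =
        2 * (-fderiv ℝ f.fn z (a i) + (l i z - s i) * f.fn z) +
        (-fderiv ℝ h.fn z (b i) + m i * h.fn z) := by
      rw [hD, hK]
      rfl
    rw [this]
  rw [e1]
  simp only [e2]
  exact h1

/-- `G = e • 1`. -/
theorem lemE_iso [DecidableEq ι] {a b : ι → E} {l : ι → E →L[ℝ] ℝ} (s : ι → ℝ) {m : ι → ℝ}
    {e : ℝ} (hG : ∀ i j, l i (a j) = if i = j then e else 0) (hb : ∀ i j, l i (b j) = 0)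
    (hm : m ≠ 0) {Ds Ks : ι → Op E} (hD : ∀ i, Ds i = -dv (a i) + ml (aff (l i) (s i)))
    (hK : ∀ i, Ks i = -dv (b i) + m i • 1) (f h : TE E) :
    8 * ((Fintype.card ι : ℝ) - 1) * e * ip μ f f ≤
      ∑ i, ip μ ((2 : ℝ) • Ds i f + Ks i h) ((2 : ℝ) • Ds i f + Ks i h) := by
  have h1 := lemE μ (G := Matrix.of fun i j => if i = j then e else 0) s hG
    (fun i j => by simp [eq_comm]) hb (lam := e) (fun x => by
      have : ∑ i, ∑ j, (Matrix.of fun i j => if i = j then e else 0) i j * x i * x j =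
          e * ∑ i, x i ^ 2 := by
        simp only [Matrix.of_apply, ite_mul, zero_mul, sum_ite_eq, mem_univ, if_true, mul_sum]
        exact sum_congr rfl fun i _ => by ring
      exact this.le) hm hD hK f h
  have e2 : (Matrix.of fun i j : ι => if i = j then e else (0 : ℝ)).trace =
      (Fintype.card ι : ℝ) * e := by
    simp [Matrix.trace]
  rw [e2] at h1
  refine le_trans (le_of_eq ?_) h1
  ring

end Vale.Agent.P088.R2.H321
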